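import Mathlib

namespace Vale.Agent.P084

open Real

variable {H Y : Type*} [NormedAddCommGroup H] [InnerProductSpace ℝ H]
  [NormedAddCommGroup Y] [NormedSpace ℝ Y]

/-- the positively homogeneous extension -/
noncomputable def hext (f : H → Y) (p : H) : Y := ‖p‖ • f (‖p‖⁻¹ • p)

theorem hext_zero (f : H → Y) : hext f 0 = 0 := by simp [hext]

theorem norm_inv_smul {p : H} (hp : p ≠ 0) : ‖‖p‖⁻¹ • p‖ = 1 := by
  rw [norm_smul, norm_inv, norm_norm, inv_mul_cancel₀ (norm_ne_zero_iff.2 hp)]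

theorem hext_smul_unit (f : H → Y) (hneg : ∀ x, ‖x‖ = 1 → f (-x) = -f x) (x : H) (hx : ‖x‖ = 1)
    (c : ℝ) : hext f (c • x) = c • f x := by
  rcases lt_trichotomy c 0 with hc | hc | hc
  · have h1 : ‖c • x‖ = -c := by rw [norm_smul, hx, mul_one, Real.norm_eq_abs, abs_of_neg hc]
    have h2 : (-c)⁻¹ • c • x = -x := by
      rw [smul_smul, inv_neg, neg_mul, inv_mul_cancel₀ hc.ne, neg_smul, one_smul]
    rw [hext, h1, h2, hneg x hx, smul_neg, neg_smul, neg_neg]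
  · subst hc; simp [hext]
  · have h1 : ‖c • x‖ = c := by rw [norm_smul, hx, mul_one, Real.norm_eq_abs, abs_of_pos hc]
    have h2 : c⁻¹ • c • x = x := by rw [smul_smul, inv_mul_cancel₀ hc.ne', one_smul]
    rw [hext, h1, h2]

theorem hext_plane (f : H → Y) (hneg : ∀ x, ‖x‖ = 1 → f (-x) = -f x)
    (hplane : ∀ x0 x1 : H, ‖x0‖ = 1 → ‖x1‖ = 1 → inner ℝ x0 x1 = 0 → ∀ s t : ℝ, s ^ 2 + t ^ 2 = 1 →
      f (s • x0 + t • x1) = s • f x0 + t • f x1)
    (x0 x1 : H) (h0 : ‖x0‖ = 1) (h1 : ‖x1‖ = 1) (horth : inner ℝ x0 x1 = 0) (a b : ℝ) :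
    hext f (a • x0 + b • x1) = a • f x0 + b • f x1 := by
  by_cases hz : a ^ 2 + b ^ 2 = 0
  · have ha : a = 0 := by nlinarith [sq_nonneg a, sq_nonneg b]
    have hb : b = 0 := by nlinarith [sq_nonneg a, sq_nonneg b]
    subst ha; subst hb; simp [hext]
  · have hpos : 0 < a ^ 2 + b ^ 2 := lt_of_le_of_ne (by positivity) (Ne.symm hz)
    set ρ := Real.sqrt (a ^ 2 + b ^ 2) with hρ
    have hρpos : 0 < ρ := Real.sqrt_pos.2 hpos
    have hρsq : ρ ^ 2 = a ^ 2 + b ^ 2 := Real.sq_sqrt hpos.le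
    have hst : (a / ρ) ^ 2 + (b / ρ) ^ 2 = 1 := by
      rw [div_pow, div_pow, ← add_div, hρsq, div_self hz]
    have hu : ‖(a / ρ) • x0 + (b / ρ) • x1‖ = 1 := by
      have h2 : ‖(a / ρ) • x0 + (b / ρ) • x1‖ ^ 2 = 1 ^ 2 := by
        rw [@norm_add_sq_real, norm_smul, norm_smul, h0, h1, inner_smul_left, inner_smul_right,
          horth]
        simp only [Real.norm_eq_abs, mul_one, sq_abs, mul_zero, add_zero]
        rw [hst]; norm_num
      exact (sq_eq_sq₀ (norm_nonneg _) zero_le_one).1 h2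
    have h3 : a • x0 + b • x1 = ρ • ((a / ρ) • x0 + (b / ρ) • x1) := by
      rw [smul_add, smul_smul, smul_smul, mul_div_cancel₀ _ hρpos.ne', mul_div_cancel₀ _ hρpos.ne']
    rw [h3, hext_smul_unit f hneg _ hu, hplane x0 x1 h0 h1 horth _ _ hst, smul_add, smul_smul,
      smul_smul, mul_div_cancel₀ _ hρpos.ne', mul_div_cancel₀ _ hρpos.ne']

theorem hext_add (f : H → Y) (hneg : ∀ x, ‖x‖ = 1 → f (-x) = -f x)
    (hplane : ∀ x0 x1 : H, ‖x0‖ = 1 → ‖x1‖ = 1 → inner ℝ x0 x1 = 0 → ∀ s t : ℝ, s ^ 2 + t ^ 2 = 1 →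
      f (s • x0 + t • x1) = s • f x0 + t • f x1) (p q : H) :
    hext f (p + q) = hext f p + hext f q := by
  by_cases hp : p = 0
  · subst hp; simp [hext_zero]
  set x0 := ‖p‖⁻¹ • p with hx0
  have h0 : ‖x0‖ = 1 := norm_inv_smul hp
  have hpx : p = ‖p‖ • x0 := by
    rw [hx0, smul_smul, mul_inv_cancel₀ (norm_ne_zero_iff.2 hp), one_smul]
  set c : ℝ := inner ℝ x0 q with hc
  set r := q - c • x0 with hr
  have hq : q = c • x0 + r := by rw [hr]; abel
  by_cases hr0 : r = 0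
  · have hq' : q = c • x0 := by rw [hq, hr0, add_zero]
    have e1 : p + q = (‖p‖ + c) • x0 := by
      rw [add_smul, ← hpx, ← hq']
    rw [e1, hext_smul_unit f hneg x0 h0, hq', hext_smul_unit f hneg x0 h0]
    conv_rhs => rw [hpx]
    rw [hext_smul_unit f hneg x0 h0, add_smul]
  · set x1 := ‖r‖⁻¹ • r with hx1
    have h1 : ‖x1‖ = 1 := norm_inv_smul hr0
    have hrx : r = ‖r‖ • x1 := by
      rw [hx1, smul_smul, mul_inv_cancel₀ (norm_ne_zero_iff.2 hr0), one_smul]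
    have horth : inner ℝ x0 x1 = 0 := by
      rw [hx1, inner_smul_right, hr, inner_sub_right, inner_smul_right,
        real_inner_self_eq_norm_sq, h0, ← hc]
      ring
    have P := hext_plane f hneg hplane x0 x1 h0 h1 horth
    have e1 : p = ‖p‖ • x0 + (0 : ℝ) • x1 := by rw [zero_smul, add_zero]; exact hpx
    have e2 : q = c • x0 + ‖r‖ • x1 := by rw [← hrx]; exact hq
    have e3 : p + q = (‖p‖ + c) • x0 + ‖r‖ • x1 := by
      rw [add_smul, ← hpx, add_assoc, ← e2]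
    have E1 : hext f p = ‖p‖ • f x0 + (0 : ℝ) • f x1 := by
      conv_lhs => rw [e1]
      exact P _ _
    have E2 : hext f q = c • f x0 + ‖r‖ • f x1 := by
      conv_lhs => rw [e2]
      exact P _ _
    rw [e3, P, E1, E2, add_smul, zero_smul]
    abel

theorem hext_smul (f : H → Y) (hneg : ∀ x, ‖x‖ = 1 → f (-x) = -f x) (c : ℝ) (p : H) :
    hext f (c • p) = c • hext f p := by
  by_cases hp : p = 0
  · subst hp; simp [hext_zero]
  set x0 := ‖p‖⁻¹ • p with hx0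
  have h0 : ‖x0‖ = 1 := norm_inv_smul hp
  have hpx : p = ‖p‖ • x0 := by
    rw [hx0, smul_smul, mul_inv_cancel₀ (norm_ne_zero_iff.2 hp), one_smul]
  have E1 : hext f p = ‖p‖ • f x0 := by
    conv_lhs => rw [hpx]
    exact hext_smul_unit f hneg x0 h0 _
  have E2 : hext f (c • p) = (c * ‖p‖) • f x0 := by
    have : c • p = (c * ‖p‖) • x0 := by rw [mul_smul, ← hpx]
    rw [this]
    exact hext_smul_unit f hneg x0 h0 _
  rw [E1, E2, mul_smul]

theorem norm_hext (f : H → Y) (hn : ∀ x, ‖x‖ = 1 → ‖f x‖ = 1) (p : H) : ‖hext f p‖ = ‖p‖ := by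
  by_cases hp : p = 0
  · subst hp; simp [hext_zero]
  rw [hext, norm_smul, norm_norm, hn _ (norm_inv_smul hp), mul_one]

/-- part 3 -/
theorem extend (f : H → Y) (hn : ∀ x, ‖x‖ = 1 → ‖f x‖ = 1)
    (hneg : ∀ x, ‖x‖ = 1 → f (-x) = -f x)
    (hplane : ∀ x0 x1 : H, ‖x0‖ = 1 → ‖x1‖ = 1 → inner ℝ x0 x1 = 0 → ∀ s t : ℝ, s ^ 2 + t ^ 2 = 1 →
      f (s • x0 + t • x1) = s • f x0 + t • f x1)
    (hsurj : ∀ y : Y, ‖y‖ = 1 → ∃ x : H, ‖x‖ = 1 ∧ f x = y) :
    ∃ T : H ≃ₗᵢ[ℝ] Y, ∀ x, ‖x‖ = 1 → T x = f x := by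
  let L : H →ₗᵢ[ℝ] Y :=
    { toFun := hext f
      map_add' := hext_add f hneg hplane
      map_smul' := fun c p => by simpa using hext_smul f hneg c p
      norm_map' := norm_hext f hn }
  have hL : Function.Surjective L := by
    intro y
    by_cases hy : y = 0
    · exact ⟨0, by rw [hy]; exact hext_zero f⟩
    · obtain ⟨x, hx, hfx⟩ := hsurj (‖y‖⁻¹ • y) (by
        rw [norm_smul, norm_inv, norm_norm, inv_mul_cancel₀ (norm_ne_zero_iff.2 hy)])
      refine ⟨‖y‖ • x, ?_⟩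
      change hext f (‖y‖ • x) = y
      rw [hext_smul_unit f hneg x hx, hfx, smul_smul, mul_inv_cancel₀ (norm_ne_zero_iff.2 hy),
        one_smul]
  refine ⟨LinearIsometryEquiv.ofSurjective L hL, fun x hx => ?_⟩
  change hext f x = f x
  have := hext_smul_unit f hneg x hx 1
  rwa [one_smul, one_smul] at this

end Vale.Agent.P084
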