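import Mathlib

namespace Vale.Agent.P084

open Real

variable {H Y : Type*} [NormedAddCommGroup H] [InnerProductSpace ℝ H]
  [NormedAddCommGroup Y] [NormedSpace ℝ Y]

theorem exists_angle (s t : ℝ) (h : s ^ 2 + t ^ 2 = 1) : ∃ α : ℝ, s = cos α ∧ t = sin α := by
  have hz : ‖(⟨s, t⟩ : ℂ)‖ = 1 := by
    rw [Complex.norm_def, Complex.normSq_mk, ← pow_two, ← pow_two, h, Real.sqrt_one]
  have hz0 : (⟨s, t⟩ : ℂ) ≠ 0 := by
    intro h0
    rw [h0, norm_zero] at hz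
    exact zero_ne_one hz
  refine ⟨Complex.arg ⟨s, t⟩, ?_, ?_⟩
  · rw [Complex.cos_arg hz0, hz]; simp
  · rw [Complex.sin_arg, hz]; simp

/-- consequence of part 1: the span of `e, e'` is Euclidean -/
theorem norm_sq_comb (e e' : Y)
    (hcs : ∀ α : ℝ, ‖cos α • e + sin α • e'‖ = 1) (p q : ℝ) :
    ‖p • e + q • e'‖ ^ 2 = p ^ 2 + q ^ 2 := by
  by_cases h0 : p ^ 2 + q ^ 2 = 0
  · have hp : p = 0 := by nlinarith [sq_nonneg p, sq_nonneg q]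
    have hq : q = 0 := by nlinarith [sq_nonneg p, sq_nonneg q]
    subst hp; subst hq; simp
  · have hpos : 0 < p ^ 2 + q ^ 2 := lt_of_le_of_ne (by positivity) (Ne.symm h0)
    set ρ := Real.sqrt (p ^ 2 + q ^ 2) with hρ
    have hρpos : 0 < ρ := Real.sqrt_pos.2 hpos
    have hρsq : ρ ^ 2 = p ^ 2 + q ^ 2 := Real.sq_sqrt hpos.le
    obtain ⟨α, h1, h2⟩ := exists_angle (p / ρ) (q / ρ) (by
      rw [div_pow, div_pow, ← add_div, hρsq, div_self h0])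
    have h3 : p • e + q • e' = ρ • (cos α • e + sin α • e') := by
      rw [← h1, ← h2, smul_add, smul_smul, smul_smul, mul_div_cancel₀ _ hρpos.ne',
        mul_div_cancel₀ _ hρpos.ne']
    rw [h3, norm_smul, hcs, mul_one, Real.norm_eq_abs, sq_abs, hρsq]

theorem neg_of_isometry (f : H → Y) (hn : ∀ x, ‖x‖ = 1 → ‖f x‖ = 1)
    (hiso : ∀ x y, ‖x‖ = 1 → ‖y‖ = 1 → ‖f x - f y‖ = ‖x - y‖)
    (hsurj : ∀ y : Y, ‖y‖ = 1 → ∃ x : H, ‖x‖ = 1 ∧ f x = y) (x : H) (hx : ‖x‖ = 1) :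
    f (-x) = -f x := by
  obtain ⟨z, hz, hfz⟩ := hsurj (-f x) (by rw [norm_neg, hn x hx])
  have h1 : ‖z - x‖ = 2 := by
    rw [← hiso z x hz hx, hfz]
    have : -f x - f x = (-2 : ℝ) • f x := by
      rw [neg_smul, two_smul]; abel
    rw [this, norm_smul, hn x hx]; norm_num
  have h2 := parallelogram_law_with_norm ℝ z x
  rw [h1, hz, hx] at h2
  have h3 : ‖z + x‖ = 0 := by nlinarith [norm_nonneg (z + x)]
  have h4 : z = -x := eq_neg_of_add_eq_zero_left (norm_eq_zero.1 h3)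
  rw [← h4, hfz]

theorem rhombus_of_isometry (f : H → Y) (hn : ∀ x, ‖x‖ = 1 → ‖f x‖ = 1)
    (hiso : ∀ x y, ‖x‖ = 1 → ‖y‖ = 1 → ‖f x - f y‖ = ‖x - y‖)
    (hsurj : ∀ y : Y, ‖y‖ = 1 → ∃ x : H, ‖x‖ = 1 ∧ f x = y) (x y : H) (hx : ‖x‖ = 1)
    (hy : ‖y‖ = 1) : ‖f x + f y‖ = ‖x + y‖ := by
  have h := hiso x (-y) hx (by rw [norm_neg, hy])
  rw [neg_of_isometry f hn hiso hsurj y hy, sub_neg_eq_add, sub_neg_eq_add] at h
  exact h


/-- part 2, with part 1 as a hypothesis -/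
theorem plane_of_isometry_aux
    (hD : (∀ a b : Y, ‖a‖ = 1 → ‖b‖ = 1 → ‖a + b‖ ^ 2 + ‖a - b‖ ^ 2 = 4) →
      ∀ e e' : Y, ‖e‖ = 1 → ‖e'‖ = 1 → ‖e + e'‖ = ‖e - e'‖ → ∀ α : ℝ,
        ‖cos α • e + sin α • e'‖ = 1)
    (f : H → Y) (hn : ∀ x, ‖x‖ = 1 → ‖f x‖ = 1)
    (hiso : ∀ x y, ‖x‖ = 1 → ‖y‖ = 1 → ‖f x - f y‖ = ‖x - y‖)
    (hsurj : ∀ y : Y, ‖y‖ = 1 → ∃ x : H, ‖x‖ = 1 ∧ f x = y)
    (x0 x1 : H) (h0 : ‖x0‖ = 1) (h1 : ‖x1‖ = 1) (horth : inner ℝ x0 x1 = 0) (s t : ℝ)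
    (hst : s ^ 2 + t ^ 2 = 1) :
    f (s • x0 + t • x1) = s • f x0 + t • f x1 := by
  have hR : ∀ a b : Y, ‖a‖ = 1 → ‖b‖ = 1 → ‖a + b‖ ^ 2 + ‖a - b‖ ^ 2 = 4 := by
    intro a b ha hb
    obtain ⟨x, hx, rfl⟩ := hsurj a ha
    obtain ⟨y, hy, rfl⟩ := hsurj b hb
    rw [rhombus_of_isometry f hn hiso hsurj x y hx hy, hiso x y hx hy]
    have := parallelogram_law_with_norm ℝ x y
    rw [hx, hy] at this
    nlinarith
  have hpm : ‖f x0 + f x1‖ = ‖f x0 - f x1‖ := by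
    rw [rhombus_of_isometry f hn hiso hsurj x0 x1 h0 h1, hiso x0 x1 h0 h1]
    have e1 : ‖x0 + x1‖ ^ 2 = ‖x0 - x1‖ ^ 2 := by
      rw [@norm_add_sq_real, @norm_sub_sq_real, horth]; ring
    exact (sq_eq_sq₀ (norm_nonneg _) (norm_nonneg _)).1 e1
  have hcs := hD hR (f x0) (f x1) (hn x0 h0) (hn x1 h1) hpm
  have hcomb := norm_sq_comb (f x0) (f x1) hcs
  have hw : ‖s • f x0 + t • f x1‖ = 1 := by
    have := hcomb s t
    rw [hst] at this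
    have h2 : ‖s • f x0 + t • f x1‖ ^ 2 = 1 ^ 2 := by rw [this]; norm_num
    exact (sq_eq_sq₀ (norm_nonneg _) zero_le_one).1 h2
  obtain ⟨z, hz, hfz⟩ := hsurj _ hw
  -- inner products of z with x0 and x1
  have hz0 : inner ℝ z x0 = s := by
    have e1 : ‖z - x0‖ ^ 2 = (s - 1) ^ 2 + t ^ 2 := by
      rw [← hiso z x0 hz h0, hfz, ← hcomb (s - 1) t]
      congr 2
      rw [sub_smul, one_smul]; abel
    rw [@norm_sub_sq_real, hz, h0] at e1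
    nlinarith
  have hz1 : inner ℝ z x1 = t := by
    have e1 : ‖z - x1‖ ^ 2 = s ^ 2 + (t - 1) ^ 2 := by
      rw [← hiso z x1 hz h1, hfz, ← hcomb s (t - 1)]
      congr 2
      rw [sub_smul, one_smul]; abel
    rw [@norm_sub_sq_real, hz, h1] at e1
    nlinarith
  have hu : ‖s • x0 + t • x1‖ ^ 2 = 1 := by
    rw [@norm_add_sq_real, norm_smul, norm_smul, h0, h1, inner_smul_left, inner_smul_right, horth]
    simp only [Real.norm_eq_abs, mul_one, sq_abs, mul_zero, add_zero]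
    exact hst
  have hzu : ‖z - (s • x0 + t • x1)‖ ^ 2 = 0 := by
    rw [@norm_sub_sq_real, hu, hz, inner_add_right, inner_smul_right, inner_smul_right, hz0, hz1]
    nlinarith
  have hzeq : z = s • x0 + t • x1 := by
    have := pow_eq_zero_iff (two_ne_zero) |>.1 hzu
    exact sub_eq_zero.1 (norm_eq_zero.1 this)
  rw [← hzeq, hfz]

end Vale.Agent.P084
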