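import Vale.Agent.P084.Rhombus
import Vale.Agent.P084.Plane
import Vale.Agent.P084.Extend

namespace Vale.Agent.P084

open Real

variable {H Y : Type*} [NormedAddCommGroup H] [InnerProductSpace ℝ H]
  [NormedAddCommGroup Y] [NormedSpace ℝ Y]

theorem glue
    (hmain : ∀ f : H → Y, (∀ x, ‖x‖ = 1 → ‖f x‖ = 1) →
      (∀ x y, ‖x‖ = 1 → ‖y‖ = 1 → ‖f x - f y‖ = ‖x - y‖) →
      (∀ y : Y, ‖y‖ = 1 → ∃ x : H, ‖x‖ = 1 ∧ f x = y) →
      ∃ T : H ≃ₗᵢ[ℝ] Y, ∀ x, ‖x‖ = 1 → T x = f x)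
    (f : Metric.sphere (0 : H) 1 → Metric.sphere (0 : Y) 1) (hf : Isometry f)
    (hs : Function.Surjective f) :
    ∃ T : H ≃ₗᵢ[ℝ] Y, ∀ x : Metric.sphere (0 : H) 1, T (x : H) = (f x : Y) := by
  classical
  let g : H → Y := fun x => if h : ‖x‖ = 1 then (f ⟨x, by simpa using h⟩ : Y) else 0
  have hg : ∀ (x : H) (h : ‖x‖ = 1), g x = (f ⟨x, by simpa using h⟩ : Y) := by
    intro x h
    simp only [g, dif_pos h]
  have h1 : ∀ x, ‖x‖ = 1 → ‖g x‖ = 1 := by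
    intro x hx
    rw [hg x hx]
    simpa using (f ⟨x, by simpa using hx⟩).2
  have h2 : ∀ x y, ‖x‖ = 1 → ‖y‖ = 1 → ‖g x - g y‖ = ‖x - y‖ := by
    intro x y hx hy
    rw [hg x hx, hg y hy]
    have := hf.dist_eq ⟨x, by simpa using hx⟩ ⟨y, by simpa using hy⟩
    rw [Subtype.dist_eq, Subtype.dist_eq, dist_eq_norm, dist_eq_norm] at this
    exact this
  have h3 : ∀ y : Y, ‖y‖ = 1 → ∃ x : H, ‖x‖ = 1 ∧ g x = y := by
    intro y hy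
    obtain ⟨x, hx⟩ := hs ⟨y, by simpa using hy⟩
    have hx1 : ‖(x : H)‖ = 1 := by simpa using x.2
    refine ⟨x, hx1, ?_⟩
    rw [hg x hx1]
    have : (⟨(x : H), by simpa using hx1⟩ : Metric.sphere (0 : H) 1) = x := rfl
    rw [this, hx]
  obtain ⟨T, hT⟩ := hmain g h1 h2 h3
  refine ⟨T, fun x => ?_⟩
  have hx : ‖(x : H)‖ = 1 := by simpa using x.2
  rw [hT x hx, hg x hx]

/-- the unbundled form of the theorem -/
theorem main_unbundled (f : H → Y) (hn : ∀ x, ‖x‖ = 1 → ‖f x‖ = 1)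
    (hiso : ∀ x y, ‖x‖ = 1 → ‖y‖ = 1 → ‖f x - f y‖ = ‖x - y‖)
    (hsurj : ∀ y : Y, ‖y‖ = 1 → ∃ x : H, ‖x‖ = 1 ∧ f x = y) :
    ∃ T : H ≃ₗᵢ[ℝ] Y, ∀ x, ‖x‖ = 1 → T x = f x :=
  extend f hn (neg_of_isometry f hn hiso hsurj)
    (plane_of_isometry_aux (fun hR e e' he he' h1 α => norm_cos_sin hR e e' he he' h1 α)
      f hn hiso hsurj) hsurj

end Vale.Agent.P084
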