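import Mathlib

namespace Vale.Agent.P084

open Real Filter Topology

variable {Y : Type*} [NormedAddCommGroup Y] [NormedSpace ℝ Y]

/-- the point of angle `α` in the frame `e, e'` -/
noncomputable def wv (e e' : Y) (α : ℝ) : Y := cos α • e + sin α • e'

theorem wv_add (e e' : Y) (m δ : ℝ) :
    wv e e' (m + δ) + wv e e' (m - δ) = (2 * cos δ) • wv e e' m := by
  simp only [wv, cos_add, cos_sub, sin_add, sin_sub, smul_add, smul_smul]
  module

theorem wv_sub (e e' : Y) (m δ : ℝ) :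
    wv e e' (m + δ) - wv e e' (m - δ) = (2 * sin δ) • wv e e' (m + π / 2) := by
  simp only [wv, cos_add, cos_sub, sin_add, sin_sub, smul_add, smul_smul, cos_pi_div_two,
    sin_pi_div_two]
  module

theorem wv_pi (e e' : Y) (α : ℝ) : wv e e' (α + π) = -wv e e' α := by
  simp only [wv, cos_add_pi, sin_add_pi]
  module

theorem continuous_wv (e e' : Y) : Continuous (wv e e') := by
  unfold wv
  fun_prop

/-- both `α` and `α + π/2` give unit vectors -/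
def QQ (e e' : Y) (α : ℝ) : Prop := ‖wv e e' α‖ = 1 ∧ ‖wv e e' (α + π / 2)‖ = 1

theorem QQ_shift {e e' : Y} {α : ℝ} (h : QQ e e' α) : QQ e e' (α + π / 2) := by
  refine ⟨h.2, ?_⟩
  have : α + π / 2 + π / 2 = α + π := by ring
  rw [this, wv_pi, norm_neg]
  exact h.1

theorem QQ_mid (hR : ∀ a b : Y, ‖a‖ = 1 → ‖b‖ = 1 → ‖a + b‖ ^ 2 + ‖a - b‖ ^ 2 = 4)
    {e e' : Y} {m δ : ℝ} (h1 : QQ e e' (m + δ)) (h2 : QQ e e' (m - δ)) (hc : cos (2 * δ) ≠ 0) :
    QQ e e' m := by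
  have E1 := hR _ _ h1.1 h2.1
  rw [wv_add, wv_sub, norm_smul, norm_smul, mul_pow, mul_pow, Real.norm_eq_abs, Real.norm_eq_abs,
    sq_abs, sq_abs] at E1
  have a1 : m + δ + π / 2 = (m + π / 2) + δ := by ring
  have a2 : m - δ + π / 2 = (m + π / 2) - δ := by ring
  have E2 := hR _ _ h1.2 h2.2
  rw [a1, a2, wv_add, wv_sub, norm_smul, norm_smul, mul_pow, mul_pow, Real.norm_eq_abs,
    Real.norm_eq_abs, sq_abs, sq_abs] at E2
  have a3 : m + π / 2 + π / 2 = m + π := by ring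
  rw [a3, wv_pi, norm_neg] at E2
  set A := ‖wv e e' m‖ with hA
  set B := ‖wv e e' (m + π / 2)‖ with hB
  have hA0 : 0 ≤ A := norm_nonneg _
  have hB0 : 0 ≤ B := norm_nonneg _
  have hcs : cos δ ^ 2 + sin δ ^ 2 = 1 := cos_sq_add_sin_sq δ
  have hc2 : cos (2 * δ) = cos δ ^ 2 - sin δ ^ 2 := by rw [cos_two_mul]; nlinarith
  have hAB : A ^ 2 = B ^ 2 := by
    have : (cos δ ^ 2 - sin δ ^ 2) * (A ^ 2 - B ^ 2) = 0 := by nlinarith
    rcases mul_eq_zero.1 this with h | h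
    · exact absurd (hc2.trans h) hc
    · linarith
  have hA1 : A ^ 2 = 1 := by
    have : (cos δ ^ 2 + sin δ ^ 2) * A ^ 2 = 1 := by nlinarith
    rwa [hcs, one_mul] at this
  have hB1 : B ^ 2 = 1 := by rw [← hAB]; exact hA1
  constructor
  · nlinarith
  · nlinarith

theorem QQ_zero {e e' : Y} (he : ‖e‖ = 1) (he' : ‖e'‖ = 1) : QQ e e' 0 := by
  constructor
  · simp [wv, he]
  · simp [wv, he']

theorem QQ_quarter (hR : ∀ a b : Y, ‖a‖ = 1 → ‖b‖ = 1 → ‖a + b‖ ^ 2 + ‖a - b‖ ^ 2 = 4)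
    {e e' : Y} (he : ‖e‖ = 1) (he' : ‖e'‖ = 1) (h1 : ‖e + e'‖ = ‖e - e'‖) : QQ e e' (π / 4) := by
  have E := hR e e' he he'
  have hp : ‖e + e'‖ ^ 2 = 2 := by rw [← h1] at E; linarith
  have hm : ‖e - e'‖ ^ 2 = 2 := by rw [h1] at hp; exact hp
  have hs : (√2 / 2) ^ 2 = 1 / 2 := by
    rw [div_pow, Real.sq_sqrt (by norm_num)]; norm_num
  have hs0 : (0 : ℝ) ≤ √2 / 2 := by positivity
  constructor
  · have : wv e e' (π / 4) = (√2 / 2) • (e + e') := by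
      simp only [wv, cos_pi_div_four, sin_pi_div_four, smul_add]
    have h2 : ‖wv e e' (π / 4)‖ ^ 2 = 1 := by
      rw [this, norm_smul, mul_pow, Real.norm_eq_abs, sq_abs, hs, hp]; norm_num
    nlinarith [norm_nonneg (wv e e' (π / 4))]
  · have : wv e e' (π / 4 + π / 2) = (-(√2 / 2)) • (e - e') := by
      simp only [wv, cos_add, sin_add, cos_pi_div_four, sin_pi_div_four, cos_pi_div_two,
        sin_pi_div_two, smul_sub]
      module
    have h2 : ‖wv e e' (π / 4 + π / 2)‖ ^ 2 = 1 := by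
      rw [this, norm_smul, mul_pow, Real.norm_eq_abs, sq_abs, neg_sq, hs, hm]; norm_num
    nlinarith [norm_nonneg (wv e e' (π / 4 + π / 2))]

theorem QQ_dyadic (hR : ∀ a b : Y, ‖a‖ = 1 → ‖b‖ = 1 → ‖a + b‖ ^ 2 + ‖a - b‖ ^ 2 = 4)
    {e e' : Y} (he : ‖e‖ = 1) (he' : ‖e'‖ = 1) (h1 : ‖e + e'‖ = ‖e - e'‖) (k : ℕ) :
    ∀ j : ℕ, QQ e e' ((j : ℝ) * π / 2 ^ (k + 2)) := by
  induction k with
  | zero =>
    intro j
    induction j using Nat.strong_induction_on with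
    | _ j ih =>
      match j with
      | 0 => simpa using QQ_zero he he'
      | 1 =>
        have := QQ_quarter hR he he' h1
        have e1 : ((1 : ℕ) : ℝ) * π / 2 ^ (0 + 2) = π / 4 := by norm_num
        rw [e1]; exact this
      | (i + 2) =>
        have := QQ_shift (ih i (by omega))
        have e1 : ((i + 2 : ℕ) : ℝ) * π / 2 ^ (0 + 2) = (i : ℝ) * π / 2 ^ (0 + 2) + π / 2 := by
          push_cast; ring
        rw [e1]; exact this
  | succ k ih =>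
    intro j
    rcases Nat.even_or_odd' j with ⟨i, hi | hi⟩
    · have e1 : (j : ℝ) * π / 2 ^ (k + 1 + 2) = (i : ℝ) * π / 2 ^ (k + 2) := by
        rw [hi]; push_cast; rw [pow_succ (2 : ℝ) (k + 2)]; field_simp
      rw [e1]; exact ih i
    · set δ : ℝ := π / 2 ^ (k + 1 + 2) with hδ
      have e1 : (j : ℝ) * π / 2 ^ (k + 1 + 2) + δ = ((i + 1 : ℕ) : ℝ) * π / 2 ^ (k + 2) := by
        rw [hi, hδ]; push_cast; rw [pow_succ (2 : ℝ) (k + 2)]; field_simp; ring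
      have e2 : (j : ℝ) * π / 2 ^ (k + 1 + 2) - δ = (i : ℝ) * π / 2 ^ (k + 2) := by
        rw [hi, hδ]; push_cast; rw [pow_succ (2 : ℝ) (k + 2)]; field_simp; ring
      refine QQ_mid hR (δ := δ) (by rw [e1]; exact ih _) (by rw [e2]; exact ih _) ?_
      have e3 : 2 * δ = π / 2 ^ (k + 2) := by
        rw [hδ, pow_succ (2 : ℝ) (k + 2)]; field_simp
      rw [e3]
      apply ne_of_gt
      apply cos_pos_of_mem_Ioo
      have hpow : (4 : ℝ) ≤ 2 ^ (k + 2) := by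
        have : (2 : ℝ) ^ 2 ≤ 2 ^ (k + 2) := pow_le_pow_right₀ (by norm_num) (by omega)
        linarith
      have hpos : (0 : ℝ) < 2 ^ (k + 2) := by positivity
      constructor
      · have : 0 < π / 2 ^ (k + 2) := div_pos pi_pos hpos
        linarith [pi_pos]
      · rw [div_lt_div_iff₀ hpos (by norm_num)]
        nlinarith [pi_pos]

theorem norm_wv_nonneg (hR : ∀ a b : Y, ‖a‖ = 1 → ‖b‖ = 1 → ‖a + b‖ ^ 2 + ‖a - b‖ ^ 2 = 4)
    {e e' : Y} (he : ‖e‖ = 1) (he' : ‖e'‖ = 1) (h1 : ‖e + e'‖ = ‖e - e'‖) (α : ℝ) (hα : 0 ≤ α) :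
    ‖wv e e' α‖ = 1 := by
  have hq : 0 ≤ α / π := div_nonneg hα pi_pos.le
  have t1 : Tendsto (fun x : ℝ => (⌊α / π * x⌋₊ : ℝ) / x) atTop (𝓝 (α / π)) :=
    tendsto_nat_floor_mul_div_atTop hq
  have t2 : Tendsto (fun k : ℕ => (2 : ℝ) ^ (k + 2)) atTop atTop :=
    (tendsto_pow_atTop_atTop_of_one_lt (by norm_num : (1 : ℝ) < 2)).comp (tendsto_add_atTop_nat 2)
  have t3 := (t1.comp t2).mul_const π
  rw [div_mul_cancel₀ _ pi_pos.ne'] at t3
  have t4 := ((continuous_wv e e').norm.tendsto α).comp t3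
  have t5 : (fun k : ℕ => (1 : ℝ)) = ((fun x => ‖wv e e' x‖) ∘ fun k : ℕ =>
      ((fun x : ℝ => (⌊α / π * x⌋₊ : ℝ) / x) ∘ fun k : ℕ => (2 : ℝ) ^ (k + 2)) k * π) := by
    funext k
    simp only [Function.comp]
    have := (QQ_dyadic hR he he' h1 k ⌊α / π * 2 ^ (k + 2)⌋₊).1
    rw [← this]
    congr 2
    ring
  rw [← t5] at t4
  exact (tendsto_nhds_unique t4 tendsto_const_nhds)

/-- part 1 -/
theorem norm_cos_sin
    (hR : ∀ a b : Y, ‖a‖ = 1 → ‖b‖ = 1 → ‖a + b‖ ^ 2 + ‖a - b‖ ^ 2 = 4)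
    (e e' : Y) (he : ‖e‖ = 1) (he' : ‖e'‖ = 1) (h1 : ‖e + e'‖ = ‖e - e'‖) (α : ℝ) :
    ‖cos α • e + sin α • e'‖ = 1 := by
  obtain ⟨n, hn⟩ := exists_nat_ge (-α / (2 * π))
  have h2 : 0 ≤ α + n * (2 * π) := by
    have hp : 0 < 2 * π := by positivity
    rw [div_le_iff₀ hp] at hn
    linarith
  have := norm_wv_nonneg hR he he' h1 _ h2
  rwa [wv, cos_add_nat_mul_two_pi, sin_add_nat_mul_two_pi] at this

end Vale.Agent.P084
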